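import Vale.Agent.P032.R2.H245.Silent
import Vale.Agent.P032.S5.H483.Lens

/-!
# P032 (T2*): near a clean six-coloured point with a silent colour `s` no point has exactly the five
other colours

If `w` is close to `z` and `T w` consists of the five active colours, the two common neighbours of
`w` and `z` are almost opposite and no colour is carried by `S(z)` near them, so both palettes are
triangles of broken pairs; there is only one triangle, and its two neighbouring places then share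
two colours.
-/

open Set Filter Topology Metric

noncomputable section

namespace Vale.Agent.P032.R2.H758

open Vale.Agent.P032.Six Vale.Agent.P032.S5.H767 Vale.Agent.P032.Words6.H704

variable {U : Fin 6 → Set ℂ} {T : ℂ → Set (Fin 6)} {z : ℂ}

theorem exists_pt' {z v : ℂ} (hv : dist v z = 1) : ∃ V, v = pt z V := by
  obtain ⟨θ, hθ⟩ := exists_cis (u := v - z) (by rw [← dist_eq_norm]; exact hv)
  refine ⟨θ * (3 / Real.pi), ?_⟩
  have : θ * (3 / Real.pi) * (Real.pi / 3) = θ := by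
    have := Real.pi_ne_zero
    field_simp
  unfold pt
  rw [this, ← hθ]; ring

/-- a colour of points `x n → z` is not carried near the limit of the common neighbours -/
theorem no_carry (C : Six6 U T z) {y x : ℕ → ℂ} {v0 : ℝ} {j : Fin 6}
    (hy : ∀ n, dist (y n) z = 1) (hyx : ∀ n, dist (y n) (x n) = 1) (hxz : ∀ n, x n ≠ z)
    (hx1 : ∀ n, dist (x n) z < 1) (hj : ∀ n, j ∈ T (x n))
    (hlim : Tendsto y atTop (𝓝 (pt z v0))) : ¬ ∀ᶠ v in 𝓝 v0, j ∈ T (pt z v) := by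
  intro h1
  have h2 := ev_circle z (p := fun q => j ∈ T q) h1
  have h3 : Tendsto y atTop (𝓝[sphere z 1] (pt z v0)) :=
    tendsto_nhdsWithin_of_tendsto_nhds_of_eventually_within _ hlim (Eventually.of_forall hy)
  have h4 := h3.eventually (eventually_eventually_nhdsWithin.2 h2)
  obtain ⟨n, hn⟩ := h4.exists
  rcases C.irr.mx.partner_line (hy n) (hn.mono fun q hq => C.irr.sub q hq) (hyx n)
    (C.irr.sub _ (hj n)) with h5 | h5
  · exact hxz n h5
  · have h6 : x n - z = 2 * (y n - z) := by linear_combination h5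
    have h7 : dist (x n) z = 2 := by
      rw [dist_eq_norm, h6, norm_mul, ← dist_eq_norm, hy]; simp
    linarith [hx1 n]

/-- **The limit instant.** -/
theorem exists_limit (C : Six6 U T z) {A : Set (Fin 6)}
    (h : ∃ᶠ w in 𝓝 z, w ≠ z ∧ A ⊆ T w) :
    ∃ v0 : ℝ, ∀ j ∈ A, (¬ ∀ᶠ v in 𝓝 v0, j ∈ T (pt z v)) ∧
      ¬ ∀ᶠ v in 𝓝 (v0 + 3), j ∈ T (pt z v) := by
  have h1 : ∃ᶠ w in 𝓝 z, (w ≠ z ∧ A ⊆ T w) ∧ dist w z < 1 :=
    h.and_eventually (Metric.ball_mem_nhds z one_pos)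
  obtain ⟨x, hx, hxP⟩ := Filter.exists_seq_forall_of_frequently h1
  have h2 : ∀ n, ∃ q, dist q z = 1 ∧ dist q (x n) = 1 := by
    intro n
    obtain ⟨q, k1, k2, -⟩ := l2_exists_inter (u := z) (v := x n)
      (by rw [dist_comm]; linarith [(hxP n).2]) (hxP n).1.1.symm
    exact ⟨q, k1, k2⟩
  choose q hq hqx using h2
  obtain ⟨q0, hq0, φ, hφ, hlim⟩ := (isCompact_sphere z 1).tendsto_subseq (x := q) (fun n => hq n)
  obtain ⟨v0, rfl⟩ := exists_pt' hq0
  refine ⟨v0, fun j hj => ⟨?_, ?_⟩⟩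
  · exact no_carry C (y := q ∘ φ) (x := x ∘ φ) (fun n => hq _) (fun n => hqx _)
      (fun n => (hxP _).1.1) (fun n => (hxP _).2) (fun n => (hxP _).1.2 hj) hlim
  · refine no_carry C (y := fun n => z + x (φ n) - q (φ n)) (x := x ∘ φ) (fun n => ?_)
      (fun n => ?_) (fun n => (hxP _).1.1) (fun n => (hxP _).2) (fun n => (hxP _).1.2 hj) ?_
    · have e : z + x (φ n) - q (φ n) - z = -(q (φ n) - x (φ n)) := by ring
      rw [dist_eq_norm, e, norm_neg, ← dist_eq_norm]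
      exact hqx _
    · have e : z + x (φ n) - q (φ n) - (x ∘ φ) n = -(q (φ n) - z) := by
        show z + x (φ n) - q (φ n) - x (φ n) = _
        ring
      rw [dist_eq_norm, e, norm_neg, ← dist_eq_norm]
      exact hq _
    · have h5 : Tendsto (fun n => z + x (φ n) - q (φ n)) atTop (𝓝 (z + z - pt z v0)) :=
        (tendsto_const_nhds.add (hx.comp hφ.tendsto_atTop)).sub hlim
      have e : z + z - pt z v0 = pt z (v0 + 3) := by rw [pt_three]; ring
      rw [← e]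
      exact h5

/-- generic times near `v0` at which the palette at the distance `c` misses the colour `j` -/
theorem gen_near (C : Six6 U T z) {v0 c : ℝ} {j : Fin 6}
    (h : ¬ ∀ᶠ v in 𝓝 (v0 + c), j ∈ T (pt z v)) {N : Set ℝ} (hN : N ∈ 𝓝 v0) :
    ∃ u ∈ N, Gn T z u ∧ j ∉ T (pt z (u + c)) := by
  have hc : Continuous fun u : ℝ => u + c := by fun_prop
  have h1 : ∃ᶠ v in 𝓝 (v0 + c), j ∉ T (pt z v) := by
    rwa [Filter.not_eventually] at h
  obtain ⟨O, hON, hO, hvO⟩ := _root_.mem_nhds_iff.1 hN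
  have hO2 : (fun v : ℝ => v - c) ⁻¹' O ∈ 𝓝 (v0 + c) := by
    have hc' : Continuous fun v : ℝ => v - c := by fun_prop
    refine (hO.preimage hc').mem_nhds ?_
    show v0 + c - c ∈ O
    rw [add_sub_cancel_right]; exact hvO
  obtain ⟨v, hv1, hv2⟩ := (h1.and_eventually hO2).exists
  have hv2 : v - c ∈ O := hv2
  have hop : IsOpen (O ∩ {u : ℝ | j ∉ T (pt z (u + c))}) := by
    refine hO.inter ?_
    exact ((C.irr.closed j).preimage ((continuous_pt z).comp hc)).isOpen_compl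
  obtain ⟨u, ⟨hu1, hu2⟩, hu3⟩ := C.gn_dense.inter_open_nonempty _ hop
    ⟨v - c, hv2, by
      show j ∉ T (pt z (v - c + c))
      rw [sub_add_cancel]; exact hv1⟩
  exact ⟨u, hON hu1, hu3, hu2⟩

theorem ev_sub (C : Six6 U T z) (v0 c : ℝ) :
    ∀ᶠ u in 𝓝 v0, T (pt z (u + c)) ⊆ T (pt z (v0 + c)) := by
  have hc : Continuous fun u : ℝ => pt z (u + c) := (continuous_pt z).comp (by fun_prop)
  exact (hc.tendsto v0).eventually (C.irr.nhd _)

/-- **A triangle.** -/
theorem triangle (C : Six6 U T z) {s : Fin 6} (hs : ∀ j, ¬ MC T z s j) {v0 : ℝ}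
    (h : ∀ j, j ≠ s → ¬ ∀ᶠ v in 𝓝 v0, j ∈ T (pt z v)) :
    ∃ a x y, a ≠ x ∧ a ≠ y ∧ x ≠ y ∧ T (pt z v0) = {a, x, y} ∧ MC T z a x ∧ MC T z a y ∧
      MC T z x y := by
  have hsR : ∀ j, ¬ MC T z j s := fun j hj => hs j (mc_symm hj)
  -- a broken pair avoiding a colour
  have key : ∀ j, j ≠ s → ∃ p r, MC T z p r ∧ p ∈ T (pt z v0) ∧ r ∈ T (pt z v0) ∧ p ≠ j ∧
      r ≠ j := by
    intro j hj
    have h1 := ev_sub C v0 0
    have h2 := h j hj
    have e0 : v0 + 0 = v0 := add_zero v0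
    rw [← e0] at h2
    obtain ⟨u, hu1, -, hu3⟩ := gen_near C h2 h1
    rw [add_zero] at hu3
    have hu1 : T (pt z (u + 0)) ⊆ T (pt z (v0 + 0)) := hu1
    rw [add_zero, add_zero] at hu1
    obtain ⟨p, r, hpr, hsub⟩ := C.sub_pair (dist_pt z u)
    refine ⟨p, r, hpr, hu1 (hsub (Or.inl rfl)), hu1 (hsub (Or.inr rfl)), ?_, ?_⟩
    · rintro rfl; exact hu3 (hsub (Or.inl rfl))
    · rintro rfl; exact hu3 (hsub (Or.inr rfl))
  obtain ⟨a, b, hab, hsub⟩ := C.sub_pair (dist_pt z v0)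
  have has : a ≠ s := by rintro rfl; exact hs b hab
  have haX : a ∈ T (pt z v0) := hsub (Or.inl rfl)
  obtain ⟨x, y, hxy, hxX, hyX, hxa, hya⟩ := key a has
  have hxs : x ≠ s := by rintro rfl; exact hs y hxy
  have hys : y ≠ s := by rintro rfl; exact hsR x hxy
  have h3 : (T (pt z v0)).ncard ≤ 3 := C.clean _ (dist_pt z v0)
  have hX : T (pt z v0) = {a, x, y} := by
    have h4 : ({a, x, y} : Set (Fin 6)).ncard = 3 := by
      rw [Set.ncard_insert_of_notMem, Set.ncard_pair hxy.1]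
      rintro (h5 | h5)
      · exact hxa h5.symm
      · exact hya h5.symm
    symm
    refine Set.eq_of_subset_of_ncard_le ?_ (by omega) (Set.toFinite _)
    rintro i (rfl | rfl | rfl)
    · exact haX
    · exact hxX
    · exact hyX
  refine ⟨a, x, y, hxa.symm, hya.symm, hxy.1, hX, ?_, ?_, hxy⟩
  · obtain ⟨p, r, hpr, hp, hr, hpy, hry⟩ := key y hys
    rw [hX] at hp hr
    rcases hp with rfl | rfl | hp
    · rcases hr with rfl | rfl | hr
      · exact absurd rfl hpr.1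
      · exact hpr
      · exact absurd hr hry
    · rcases hr with rfl | rfl | hr
      · exact mc_symm hpr
      · exact absurd rfl hpr.1
      · exact absurd hr hry
    · exact absurd hp hpy
  · obtain ⟨p, r, hpr, hp, hr, hpx, hrx⟩ := key x hxs
    rw [hX] at hp hr
    rcases hp with rfl | rfl | hp
    · rcases hr with rfl | rfl | hr
      · exact absurd rfl hpr.1
      · exact absurd rfl hrx
      · rw [hr] at hpr; exact hpr
    · exact absurd rfl hpx
    · rcases hr with rfl | rfl | hr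
      · rw [hp] at hpr; exact mc_symm hpr
      · exact absurd rfl hrx
      · rw [hp, hr] at hpr; exact absurd rfl hpr.1

theorem four {a x y p r j t : Fin 6} (hpr : p ≠ r) (hpj : p ≠ j) (hrj : r ≠ j) (hjt : j ≠ t)
    (hp : p = a ∨ p = x ∨ p = y) (hr : r = a ∨ r = x ∨ r = y) (hj : j = a ∨ j = x ∨ j = y)
    (ht : t = a ∨ t = x ∨ t = y) : p = t ∨ r = t := by
  simp only [ne_eq, Fin.ext_iff] at *
  omega

/-- **The neighbouring place** (`v` is the place of the triangle, `w` the neighbouring one; `dj`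
says that generic palettes there are disjoint). -/
theorem side (C : Six6 U T z) {s : Fin 6} (hs : ∀ j, ¬ MC T z s j) {v0 c d : ℝ}
    (h : ∀ j, j ≠ s → ¬ ∀ᶠ v in 𝓝 (v0 + c), j ∈ T (pt z v)) {a x y : Fin 6}
    (hX : T (pt z (v0 + c)) = {a, x, y})
    (hdj : ∀ u, Gn T z u → Disjoint (T (pt z (u + c))) (T (pt z (u + d))))
    (hone : (T (pt z (v0 + c)) ∩ T (pt z (v0 + d))).ncard ≤ 1)
    {e g : Fin 6} (hcov : ∀ j, j = a ∨ j = x ∨ j = y ∨ j = s ∨ j = e ∨ j = g)
    (hax : a ≠ x) (hay : a ≠ y) (hxy : x ≠ y) (has : a ≠ s) (hxs : x ≠ s) (hys : y ≠ s) :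
    e ∈ T (pt z (v0 + d)) := by
  by_contra hcon
  have hsR : ∀ j, ¬ MC T z j s := fun j hj => hs j (mc_symm hj)
  rw [Set.ncard_le_one (Set.toFinite _)] at hone
  -- every broken pair of the neighbouring palette has a colour of the triangle
  have key : ∀ p r, MC T z p r → p ∈ T (pt z (v0 + d)) → r ∈ T (pt z (v0 + d)) →
      p ∈ T (pt z (v0 + c)) ∨ r ∈ T (pt z (v0 + c)) := by
    intro p r hpr hp hr
    by_contra h1
    rw [not_or] at h1
    obtain ⟨h1, h2⟩ := h1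
    rw [hX] at h1 h2
    have hps : p ≠ s := by rintro rfl; exact hs r hpr
    have hrs : r ≠ s := by rintro rfl; exact hsR p hpr
    have hpe : p ≠ e := by rintro rfl; exact hcon hp
    have hre : r ≠ e := by rintro rfl; exact hcon hr
    have hpg : p = g := by
      rcases hcov p with h3 | h3 | h3 | h3 | h3 | h3
      · exact absurd (Or.inl h3) h1
      · exact absurd (Or.inr (Or.inl h3)) h1
      · exact absurd (Or.inr (Or.inr h3)) h1
      · exact absurd h3 hps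
      · exact absurd h3 hpe
      · exact h3
    have hrg : r = g := by
      rcases hcov r with h3 | h3 | h3 | h3 | h3 | h3
      · exact absurd (Or.inl h3) h2
      · exact absurd (Or.inr (Or.inl h3)) h2
      · exact absurd (Or.inr (Or.inr h3)) h2
      · exact absurd h3 hrs
      · exact absurd h3 hre
      · exact h3
    exact hpr.1 (hpg.trans hrg.symm)
  -- the common colour `t`
  obtain ⟨p, r, hpr, hsub⟩ := C.sub_pair (dist_pt z (v0 + d))
  obtain ⟨t, ht1, ht2⟩ : ∃ t, t ∈ T (pt z (v0 + c)) ∧ t ∈ T (pt z (v0 + d)) := by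
    rcases key p r hpr (hsub (Or.inl rfl)) (hsub (Or.inr rfl)) with h1 | h1
    · exact ⟨p, h1, hsub (Or.inl rfl)⟩
    · exact ⟨r, h1, hsub (Or.inr rfl)⟩
  -- it is always there
  have hev : ∀ᶠ u in 𝓝 v0, t ∈ T (pt z (u + d)) := by
    filter_upwards [ev_sub C v0 d] with u hu
    obtain ⟨p, r, hpr, hsub⟩ := C.sub_pair (dist_pt z (u + d))
    have hp := hsub (Or.inl rfl)
    have hr := hsub (Or.inr rfl)
    rcases key p r hpr (hu hp) (hu hr) with h1 | h1
    · rw [hone t ⟨ht1, ht2⟩ p ⟨h1, hu hp⟩]; exact hp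
    · rw [hone t ⟨ht1, ht2⟩ r ⟨h1, hu hr⟩]; exact hr
  -- a colour of the triangle different from `t`
  obtain ⟨j, hjX, hjt, hjs⟩ : ∃ j, j ∈ T (pt z (v0 + c)) ∧ j ≠ t ∧ j ≠ s := by
    rw [hX] at ht1 ⊢
    by_cases h1 : a = t
    · exact ⟨x, Or.inr (Or.inl rfl), fun h2 => hax (h1.trans h2.symm), hxs⟩
    · exact ⟨a, Or.inl rfl, h1, has⟩
  obtain ⟨u, hu1, hu2, hu3⟩ := gen_near C (h j hjs) (hev.and (ev_sub C v0 c))
  obtain ⟨hu4, hu5⟩ := hu1
  obtain ⟨p, r, hpr, hsub⟩ := C.sub_pair (dist_pt z (u + c))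
  have hp := hsub (Or.inl rfl)
  have hr := hsub (Or.inr rfl)
  have hdd := Set.disjoint_left.1 (hdj u hu2)
  refine hdd (a := t) ?_ hu4
  -- the palette has at least two of the three colours and not `j`
  have hpj : p ≠ j := by rintro rfl; exact hu3 hp
  have hrj : r ≠ j := by rintro rfl; exact hu3 hr
  have hpX := hu5 hp
  have hrX := hu5 hr
  rw [hX] at hpX hrX hjX ht1
  have : p = t ∨ r = t := four hpr.1 hpj hrj hjt hpX hrX hjX ht1
  rcases this with rfl | rfl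
  · exact hp
  · exact hr

theorem pent_no_triangle : ∀ i j k : Fin 5, (j = i + 1 ∨ i = j + 1) → (k = i + 1 ∨ i = k + 1) →
    (k = j + 1 ∨ j = k + 1) → False := by decide

theorem house_triangle : ∀ i j k : Fin 5,
    (j = i + 1 ∨ i = j + 1 ∨ (i = 0 ∧ j = 2) ∨ (i = 2 ∧ j = 0)) →
    (k = i + 1 ∨ i = k + 1 ∨ (i = 0 ∧ k = 2) ∨ (i = 2 ∧ k = 0)) →
    (k = j + 1 ∨ j = k + 1 ∨ (j = 0 ∧ k = 2) ∨ (j = 2 ∧ k = 0)) →
    (0 = i ∨ 0 = j ∨ 0 = k) ∧ (1 = i ∨ 1 = j ∨ 1 = k) ∧ (2 = i ∨ 2 = j ∨ 2 = k) := by decide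

theorem fin5_cases : ∀ b : Fin 5, b = 0 ∨ b = 1 ∨ b = 2 ∨ b = 3 ∨ b = 4 := by decide

/-- **No point with exactly the five active colours near a clean six-coloured point with a silent
colour.** -/
theorem ne_five (C : Six6 U T z)
    (hmin : ∀ z, 4 ≤ (T z).ncard → ∀ s, s ⊆ T z → s ≠ T z →
      ¬ ∀ᶠ w in 𝓝 z, ∃ i ∈ s, w ∈ U i ∨ (w ∈ XX U ∧ i ∈ Pal U w)) {s : Fin 6}
    (hs : ∀ j, ¬ MC T z s j) : ∀ᶠ w in 𝓝 z, w ≠ z → s ∉ T w → (T w).ncard ≠ 5 := by
  by_contra hcon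
  have hsR : ∀ j, ¬ MC T z j s := fun j hj => hs j (mc_symm hj)
  have h1 : ∃ᶠ w in 𝓝 z, w ≠ z ∧ ({s}ᶜ : Set (Fin 6)) ⊆ T w := by
    rw [Filter.not_eventually] at hcon
    refine hcon.mono fun w hw => ?_
    rw [Classical.not_imp, Classical.not_imp, not_not] at hw
    obtain ⟨h1, h2, h3⟩ := hw
    refine ⟨h1, ?_⟩
    have h4 : T w ⊆ {s}ᶜ := fun i hi => by rintro rfl; exact h2 hi
    have h5 : (({s}ᶜ : Set (Fin 6))).ncard ≤ (T w).ncard := by
      rw [h3, Set.ncard_compl _ (Set.toFinite _), Set.ncard_singleton, Nat.card_eq_fintype_card,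
        Fintype.card_fin]
    rw [Set.eq_of_subset_of_ncard_le h4 h5 (Set.toFinite _)]
  obtain ⟨v0, hv0⟩ := exists_limit C h1
  have g0 : ∀ j, j ≠ s → ¬ ∀ᶠ v in 𝓝 v0, j ∈ T (pt z v) := fun j hj => (hv0 j hj).1
  have g3 : ∀ j, j ≠ s → ¬ ∀ᶠ v in 𝓝 (v0 + 3), j ∈ T (pt z v) := fun j hj => (hv0 j hj).2
  obtain ⟨a, x, y, hax, hay, hxy, hX, m1, m2, m3⟩ := triangle C hs g0
  obtain ⟨a', x', y', hax', hay', hxy', hY, m1', m2', m3'⟩ := triangle C hs g3
  obtain ⟨f, hf, hfs, hfc, hM⟩ := H245.silent C hmin hs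
  have hne : ∀ p r, MC T z p r → p ≠ s ∧ r ≠ s := by
    intro p r h
    constructor
    · rintro rfl; exact hs r h
    · rintro rfl; exact hsR p h
  -- a triangle of broken pairs is the triangle of the house
  have tri : ∀ a x y, MC T z a x → MC T z a y → MC T z x y →
      ∀ j, j = a ∨ j = x ∨ j = y ∨ j = s ∨ j = f 3 ∨ j = f 4 := by
    intro a x y m1 m2 m3 j
    obtain ⟨i1, rfl⟩ := (hfc a).resolve_left (hne _ _ m1).1
    obtain ⟨i2, rfl⟩ := (hfc x).resolve_left (hne _ _ m1).2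
    obtain ⟨i3, rfl⟩ := (hfc y).resolve_left (hne _ _ m2).2
    rcases hM with hM | hM
    · exact (pent_no_triangle i1 i2 i3 ((hM _ _).1 m1) ((hM _ _).1 m2) ((hM _ _).1 m3)).elim
    · obtain ⟨k0, k1, k2⟩ := house_triangle i1 i2 i3 ((hM _ _).1 m1) ((hM _ _).1 m2)
        ((hM _ _).1 m3)
      rcases hfc j with h2 | ⟨b, rfl⟩
      · exact Or.inr (Or.inr (Or.inr (Or.inl h2)))
      rcases fin5_cases b with rfl | rfl | rfl | rfl | rfl
      · rcases k0 with h3 | h3 | h3 <;> rw [← h3] <;> simp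
      · rcases k1 with h3 | h3 | h3 <;> rw [← h3] <;> simp
      · rcases k2 with h3 | h3 | h3 <;> rw [← h3] <;> simp
      · simp
      · simp
  have t1 := tri a x y m1 m2 m3
  have t2 := tri a' x' y' m1' m2' m3'
  have swap : ∀ {j a x y s e g : Fin 6}, (j = a ∨ j = x ∨ j = y ∨ j = s ∨ j = e ∨ j = g) →
      (j = a ∨ j = x ∨ j = y ∨ j = s ∨ j = g ∨ j = e) := by
    intro j a x y s e g h
    tauto
  have dj : ∀ u, Gn T z u → Disjoint (T (pt z (u + 0))) (T (pt z (u + 1))) := by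
    intro u hu
    have h2 := hu 0
    have e0 : u + ((0 : Fin 6).val : ℝ) = u := by
      show u + ((0 : ℕ) : ℝ) = u
      push_cast; ring
    rw [e0] at h2
    rw [add_zero]
    exact C.disj h2
  have n1 : (T (pt z (v0 + 0)) ∩ T (pt z (v0 + 1))).ncard ≤ 1 := by
    rw [add_zero]; exact Words6.H46.nb_one C v0
  have n2 : (T (pt z (v0 + 2 + 1)) ∩ T (pt z (v0 + 2 + 0))).ncard ≤ 1 := by
    rw [add_zero, Set.inter_comm]; exact Words6.H46.nb_one C (v0 + 2)
  have e3 : v0 + 2 + 1 = v0 + 3 := by ring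
  have hX0 : T (pt z (v0 + 0)) = {a, x, y} := by rw [add_zero]; exact hX
  have hY0 : T (pt z (v0 + 2 + 1)) = {a', x', y'} := by rw [e3]; exact hY
  have g0' : ∀ j, j ≠ s → ¬ ∀ᶠ v in 𝓝 (v0 + 0), j ∈ T (pt z v) := by rw [add_zero]; exact g0
  have g3' : ∀ j, j ≠ s → ¬ ∀ᶠ v in 𝓝 (v0 + 2 + 1), j ∈ T (pt z v) := by rw [e3]; exact g3
  have p1 : f 3 ∈ T (pt z (v0 + 1)) := side C hs g0' hX0 dj n1 t1 hax hay hxy (hne _ _ m1).1
    (hne _ _ m1).2 (hne _ _ m2).2
  have p2 : f 4 ∈ T (pt z (v0 + 1)) := side C hs g0' hX0 dj n1 (fun j => swap (t1 j)) hax hay hxy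
    (hne _ _ m1).1 (hne _ _ m1).2 (hne _ _ m2).2
  have p3 : f 3 ∈ T (pt z (v0 + 2 + 0)) := side C hs g3' hY0 (fun u hu => (dj u hu).symm) n2 t2
    hax' hay' hxy' (hne _ _ m1').1 (hne _ _ m1').2 (hne _ _ m2').2
  have p4 : f 4 ∈ T (pt z (v0 + 2 + 0)) := side C hs g3' hY0 (fun u hu => (dj u hu).symm) n2
    (fun j => swap (t2 j)) hax' hay' hxy' (hne _ _ m1').1 (hne _ _ m1').2 (hne _ _ m2').2
  have n3 := Words6.H46.nb_one C (v0 + 1)
  rw [Set.ncard_le_one (Set.toFinite _)] at n3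
  have e4 : v0 + 1 + 1 = v0 + 2 + 0 := by ring
  rw [e4] at n3
  have := hf (n3 (f 3) ⟨p1, p3⟩ (f 4) ⟨p2, p4⟩)
  exact absurd this (by decide)

end Vale.Agent.P032.R2.H758
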